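import Mathlib
import Vale.Agent.Lib.P037.Defs
import Vale.Agent.Lib.P037.Final

namespace Vale.Agent.Results.P037.A_diag

open Vale.Agent.Lib.P037

/-- Polynomial removal for the two diagonal `2 × 2` patterns `[[1,0],[0,1]]` and `[[0,1],[1,0]]`:
with `C = 14` and `c = 10 ^ (-14)`, every `n × n` binary matrix at distance at least `ε` from being
free of the pattern contains at least `c * ε ^ C * n ^ 4` ordered copies. -/
theorem result :
    ∀ (n : ℕ), 1 ≤ n → ∀ (A : Fin n → Fin n → Bool) (ε : ℝ), 0 < ε → ε < 1 →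
      (ε ≤ distFree diagH A → 1 / 10 ^ 14 * ε ^ 14 * (n : ℝ) ^ 4 ≤ (copyCount diagH A : ℝ)) ∧
      (ε ≤ distFree antidiagH A →
        1 / 10 ^ 14 * ε ^ 14 * (n : ℝ) ^ 4 ≤ (copyCount antidiagH A : ℝ)) :=
  fun _ hn A ε h0 h1 =>
    ⟨diag_removal hn A ε h0 h1, antidiag_removal hn A ε h0 h1⟩

end Vale.Agent.Results.P037.A_diag
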