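import Mathlib
import Vale.Agent.Lib.P037.Defs
import Vale.Agent.Lib.P037.All2x2

namespace Vale.Agent.Results.P037.B_all2x2

open Vale.Agent.Lib.P037

/-- Polynomial removal for every `2 × 2` binary pattern `H`: with `c = 10 ^ (-38)` and `C = 26`,
every `n × n` binary matrix at distance at least `ε` from being free of `H` contains at least
`c * ε ^ C * n ^ 4` ordered copies of `H`. -/
theorem result :
    ∀ (H : Fin 2 → Fin 2 → Bool) (n : ℕ), 1 ≤ n → ∀ (A : Fin n → Fin n → Bool) (ε : ℝ), 0 < ε →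
      ε < 1 → ε ≤ distFree H A → 1 / 10 ^ 38 * ε ^ 26 * (n : ℝ) ^ 4 ≤ (copyCount H A : ℝ) := by
  intro H n hn A ε h0 h1 hd
  have h := all_patterns H n hn A ε h0 h1 hd
  simpa using h

end Vale.Agent.Results.P037.B_all2x2
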